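import Vale.Agent.P068.Closure

open Matroid Set

/-- A solution of the intersection problem up to a finite error can be corrected to an exact one:
if `J` is independent in both `M` and `N` and `X` is a set such that `J ∩ X` has finite
relative rank in `M ↾ X` and `J \ X` has finite relative rank in `N ↾ (E \ X)`, then `(M, N)`
satisfies the intersection property. -/
theorem Vale.Agent.Results.P068.AlmostTight.result {α : Type*} (M N : Matroid α)
    (hE : M.E = N.E) (J X : Set α) (hM : M.Indep J) (hN : N.Indep J)
    (h1 : ((M ↾ X) ／ (J ∩ X)).RankFinite) (h2 : ((N ↾ (N.E \ X)) ／ (J \ X)).RankFinite) :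
    ∃ JM JN : Set α, Disjoint JM JN ∧ M.Indep (JM ∪ JN) ∧ N.Indep (JM ∪ JN) ∧
      M.closure JM ∪ N.closure JN = M.E :=
  Vale.Agent.P068.sat_of_rankFinite hE hM hN h1 h2
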