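import Vale.Agent.P068.Wave

open Matroid Set

/-- For arbitrary matroids `M`, `N` on a common ground set there is a largest wave `(X, P)` (so `P`
is an `N`-basis of `X`, independent in `M` contracted to `X`, and `X` contains every other such
set) such that countably many of the requirements of the intersection problem outside `X` can be
met at once: given countably many cocircuits of `M` and countably many circuits of `N` there is `J`
outside `X` meeting each of those cocircuits not contained in `X`, with `P ∪ J` containing none of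
those circuits. -/
theorem Vale.Agent.Results.P068.CountableApprox.result {α : Type*} (M N : Matroid α)
    (hE : M.E = N.E) :
    ∃ X P : Set α, N.IsBasis P X ∧ (M ／ (M.E \ X)).Indep P ∧
      (∀ X' P', N.IsBasis P' X' → (M ／ (M.E \ X')).Indep P' → X' ⊆ X) ∧
      ∀ 𝒟 𝒞 : Set (Set α), 𝒟.Countable → 𝒞.Countable → (∀ D ∈ 𝒟, M.IsCocircuit D) →
        (∀ C ∈ 𝒞, N.IsCircuit C) →
        ∃ J, J ⊆ M.E \ X ∧ (∀ D ∈ 𝒟, D ⊆ X ∨ (D ∩ J).Nonempty) ∧ (∀ C ∈ 𝒞, ¬ C ⊆ P ∪ J) :=
  Vale.Agent.P068.exists_countable_approx hE
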