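import Vale.Agent.P068.Wave

open Matroid Set

/-- The matroid intersection conjecture holds for every pair of matroids on a common ground set
(of any cardinality, with no finitary or cofinitary assumption) such that `M` has only countably
many cocircuits and `N` has only countably many circuits. -/
theorem Vale.Agent.Results.P068.CountableCocircuits.result {α : Type*} (M N : Matroid α)
    (hE : M.E = N.E) (hM : {D | M.IsCocircuit D}.Countable)
    (hN : {C | N.IsCircuit C}.Countable) :
    ∃ JM JN : Set α, Disjoint JM JN ∧ M.Indep (JM ∪ JN) ∧ N.Indep (JM ∪ JN) ∧
      M.closure JM ∪ N.closure JN = M.E :=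
  Vale.Agent.P068.sat_of_countable hE hM hN
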