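import Vale.Agent.P068.Closure

open Matroid Set

/-- Let `M`, `N` be arbitrary (possibly infinite, BDKPW) matroids on a common ground set, whose
ground set is the union of a set `A` of finite `N`-rank and an `N`-independent set `B`.
Then `(M, N)` satisfies the intersection property. -/
theorem Vale.Agent.Results.P068.FiniteRankPlusIndep.result {α : Type*} (M N : Matroid α)
    (hE : M.E = N.E) (A B : Set α) (hAB : A ∪ B = N.E) (hA : N.IsRkFinite A) (hB : N.Indep B) :
    ∃ JM JN : Set α, Disjoint JM JN ∧ M.Indep (JM ∪ JN) ∧ N.Indep (JM ∪ JN) ∧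
      M.closure JM ∪ N.closure JN = M.E :=
  Vale.Agent.P068.sat_of_rkFinite_union_indep hE hAB hA hB
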